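import Mathlib

/-! P068: the intersection property of a pair of matroids. -/

namespace Vale.Agent.P068

/-- `(M, N)` satisfies intersection: some set `JM ∪ JN` (disjoint union) is independent in both
matroids, and the closures of `JM` in `M` and of `JN` in `N` cover the ground set -/
def SatInt {α : Type*} (M N : Matroid α) : Prop :=
  ∃ JM JN : Set α, Disjoint JM JN ∧ M.Indep (JM ∪ JN) ∧ N.Indep (JM ∪ JN) ∧
    M.closure JM ∪ N.closure JN = M.E

/-- the sizes of the finite common independent sets are bounded -/
def Bdd {α : Type*} (M N : Matroid α) : Prop :=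
  ∃ k : ℕ, ∀ J : Finset α, M.Indep (J : Set α) → N.Indep (J : Set α) → J.card ≤ k

end Vale.Agent.P068
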