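import Mathlib

/-! P068: matroid intersection when the common independent sets are bounded. -/

namespace Vale.Agent.P068

open Finset

variable {α : Type*} [DecidableEq α]

/-- rank functions on finite sets -/
structure RF (r : Finset α → ℕ) : Prop where
  zero : r ∅ = 0
  mono : ∀ A B, A ⊆ B → r A ≤ r B
  unit : ∀ x A, r (insert x A) ≤ r A + 1
  sub : ∀ A B, r (A ∩ B) + r (A ∪ B) ≤ r A + r B

theorem RF.single {r : Finset α → ℕ} (h : RF r) (x : α) : r {x} ≤ 1 := by
  have := h.unit x ∅
  rw [h.zero] at this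
  simpa using this

theorem RF.loops {r : Finset α → ℕ} (h : RF r) (A : Finset α) (hA : ∀ x ∈ A, r {x} = 0) :
    r A = 0 := by
  induction A using Finset.induction_on with
  | empty => exact h.zero
  | insert x A _ ih =>
    have h1 := h.sub {x} A
    have h2 := ih fun y hy => hA y (mem_insert_of_mem hy)
    have h3 := hA x (mem_insert_self x A)
    rw [h2, h3] at h1
    have h4 : insert x A = {x} ∪ A := rfl
    rw [h4]
    omega

theorem RF.contract {r : Finset α → ℕ} (h : RF r) {s : α} (hs : r {s} = 1) :
    RF (fun A => r (insert s A) - 1) where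
  zero := by
    show r (insert s ∅) - 1 = 0
    rw [insert_empty_eq, hs]
  mono := fun A B hAB => Nat.sub_le_sub_right (h.mono _ _ (insert_subset_insert s hAB)) 1
  unit := fun x A => by
    have h1 := h.unit x (insert s A)
    rw [insert_comm] at h1
    show r (insert s (insert x A)) - 1 ≤ r (insert s A) - 1 + 1
    omega
  sub := fun A B => by
    have h1 := h.sub (insert s A) (insert s B)
    have e1 : insert s A ∩ insert s B = insert s (A ∩ B) := (insert_inter_distrib A B s).symm
    have e2 : insert s A ∪ insert s B = insert s (A ∪ B) := (insert_union_distrib s A B).symm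
    rw [e1, e2] at h1
    have h2 : ∀ C, 1 ≤ r (insert s C) := fun C => by
      rw [← hs]; exact h.mono _ _ (singleton_subset_iff.2 (mem_insert_self s C))
    have := h2 (A ∩ B)
    have := h2 (A ∪ B)
    have := h2 A
    have := h2 B
    show r (insert s (A ∩ B)) - 1 + (r (insert s (A ∪ B)) - 1) ≤
      r (insert s A) - 1 + (r (insert s B) - 1)
    omega

/-- finite matroid intersection for rank functions -/
theorem inter (n : ℕ) : ∀ (r1 r2 : Finset α → ℕ), RF r1 → RF r2 → ∀ (S : Finset α), S.card = n →
    ∀ k : ℕ, (∀ X ⊆ S, k ≤ r1 X + r2 (S \ X)) →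
    ∃ J ⊆ S, J.card = k ∧ r1 J = k ∧ r2 J = k := by
  induction n with
  | zero =>
    intro r1 r2 h1 h2 S hS k hk
    rw [card_eq_zero] at hS
    subst hS
    have h3 := hk ∅ (Subset.refl _)
    rw [h1.zero, sdiff_self] at h3
    have h4 : r2 (∅ : Finset α) = 0 := h2.zero
    have h5 : r2 (⊥ : Finset α) = 0 := h2.zero
    have h6 : k = 0 := by simp only [h5] at h3; omega
    subst h6
    exact ⟨∅, Subset.refl _, card_empty, h1.zero, h2.zero⟩
  | succ n ih =>
    intro r1 r2 h1 h2 S hS k hk
    rcases Nat.eq_zero_or_pos k with h0 | h0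
    · subst h0
      exact ⟨∅, empty_subset _, card_empty, h1.zero, h2.zero⟩
    -- an element which is a loop of neither
    obtain ⟨s, hsS, hs1, hs2⟩ : ∃ s ∈ S, r1 {s} = 1 ∧ r2 {s} = 1 := by
      by_contra hcon
      push Not at hcon
      have h3 := hk (S.filter fun x => r1 {x} = 0) (filter_subset _ _)
      rw [h1.loops _ (fun x hx => (mem_filter.1 hx).2)] at h3
      rw [h2.loops _ (fun x hx => by
        rw [mem_sdiff, mem_filter] at hx
        have h4 : r1 {x} ≠ 0 := fun h => hx.2 ⟨hx.1, h⟩
        have h5 := h1.single x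
        have h6 := h2.single x
        have h7 := hcon x hx.1 (by omega)
        omega)] at h3
      omega
    set S' := S.erase s with hS'
    have hcard : S'.card = n := by rw [hS', card_erase_of_mem hsS, hS]; rfl
    have hsub : S' ⊆ S := erase_subset _ _
    have hins : insert s S' = S := insert_erase hsS
    have hsS' : s ∉ S' := notMem_erase s S
    by_cases hA : ∀ X ⊆ S', k ≤ r1 X + r2 (S' \ X)
    · obtain ⟨J, h3, h4, h5, h6⟩ := ih r1 r2 h1 h2 S' hcard k hA
      exact ⟨J, h3.trans hsub, h4, h5, h6⟩
    · push Not at hA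
      obtain ⟨U, hU, hUk⟩ := hA
      have hB : ∀ T ⊆ S', k - 1 ≤ (r1 (insert s T) - 1) + (r2 (insert s (S' \ T)) - 1) := by
        intro T hT
        by_contra hcon
        push Not at hcon
        have p1 : 1 ≤ r1 (insert s T) := by
          rw [← hs1]; exact h1.mono _ _ (singleton_subset_iff.2 (mem_insert_self s T))
        have p2 : 1 ≤ r2 (insert s (S' \ T)) := by
          rw [← hs2]; exact h2.mono _ _ (singleton_subset_iff.2 (mem_insert_self s _))
        have q1 := h1.sub U (insert s T)
        have q2 := h2.sub (S' \ U) (insert s (S' \ T))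
        have q3 := hk (U ∩ insert s T) (inter_subset_left.trans (hU.trans hsub))
        have q4 := hk (U ∪ insert s T) (union_subset (hU.trans hsub)
          (insert_subset hsS (hT.trans hsub)))
        have hsU : s ∉ U := fun h => hsS' (hU h)
        have e1 : S \ (U ∩ insert s T) = (S' \ U) ∪ insert s (S' \ T) := by
          ext x
          simp only [mem_sdiff, mem_inter, mem_insert, mem_union, hS', mem_erase]
          by_cases hx : x = s
          · subst hx; simp [hsS, hsU]
          · simp [hx]; tauto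
        have e2 : S \ (U ∪ insert s T) = (S' \ U) ∩ insert s (S' \ T) := by
          ext x
          simp only [mem_sdiff, mem_inter, mem_insert, mem_union, hS', mem_erase]
          by_cases hx : x = s
          · subst hx; simp
          · simp [hx]; tauto
        rw [e1] at q3
        rw [e2] at q4
        omega
      obtain ⟨J, h3, h4, h5, h6⟩ := ih _ _ (h1.contract hs1) (h2.contract hs2) S' hcard (k - 1) hB
      have hsJ : s ∉ J := fun h => hsS' (h3 h)
      refine ⟨insert s J, ?_, ?_, ?_, ?_⟩
      · rw [← hins]; exact insert_subset_insert s h3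
      · rw [card_insert_of_notMem hsJ]; omega
      · have : 1 ≤ r1 (insert s J) := by
          rw [← hs1]; exact h1.mono _ _ (singleton_subset_iff.2 (mem_insert_self s J))
        have h5' : r1 (insert s J) - 1 = k - 1 := h5
        omega
      · have : 1 ≤ r2 (insert s J) := by
          rw [← hs2]; exact h2.mono _ _ (singleton_subset_iff.2 (mem_insert_self s J))
        have h6' : r2 (insert s J) - 1 = k - 1 := h6
        omega

/-- compactness -/
theorem compact {r1 r2 : Finset α → ℕ} (h1 : RF r1) (h2 : RF r2) (k : ℕ)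
    (h : ∀ S : Finset α, ∃ X ⊆ S, r1 X + r2 (S \ X) ≤ k) :
    ∃ X : Set α, ∀ A B : Finset α, (∀ a ∈ A, a ∈ X) → (∀ b ∈ B, b ∉ X) → r1 A + r2 B ≤ k := by
  classical
  choose X hX hk using h
  let U : Ultrafilter (Finset α) := Ultrafilter.of Filter.atTop
  refine ⟨{x | ∀ᶠ S in (U : Filter (Finset α)), x ∈ X S}, fun A B hA hB => ?_⟩
  have e1 : ∀ᶠ S in (U : Filter (Finset α)), ∀ a ∈ A, a ∈ X S :=
    (Filter.eventually_all_finset A).2 fun a ha => hA a ha
  have e2 : ∀ᶠ S in (U : Filter (Finset α)), ∀ b ∈ B, b ∉ X S :=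
    (Filter.eventually_all_finset B).2 fun b hb => Ultrafilter.eventually_not.2 (hB b hb)
  have e3 : ∀ᶠ S in (U : Filter (Finset α)), B ⊆ S :=
    (Ultrafilter.of_le Filter.atTop) (Filter.eventually_ge_atTop B)
  obtain ⟨S, h3, h4, h5⟩ := (e1.and (e2.and e3)).exists
  have h6 := h1.mono A (X S) h3
  have h7 := h2.mono B (S \ X S) fun b hb => mem_sdiff.2 ⟨h5 hb, h4 b hb⟩
  have h8 := hk S
  omega

/-- the rank function of a matroid on finite sets -/
noncomputable def rk (M : Matroid α) (A : Finset α) : ℕ := (M.eRk (A : Set α)).toNat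

omit [DecidableEq α] in
theorem coe_rk (M : Matroid α) (A : Finset α) : ((rk M A : ℕ) : ℕ∞) = M.eRk (A : Set α) := by
  unfold rk
  refine ENat.natCast_toNat ?_
  have h := M.eRk_le_encard (A : Set α)
  have h2 : (A : Set α).encard ≠ ⊤ := by simp
  exact ne_top_of_le_ne_top h2 h

theorem rk_RF (M : Matroid α) : RF (rk M) where
  zero := by
    have := coe_rk M ∅
    rw [coe_empty, M.eRk_empty] at this
    exact_mod_cast this
  mono := fun A B h => by
    have : ((rk M A : ℕ) : ℕ∞) ≤ (rk M B : ℕ) := by
      rw [coe_rk, coe_rk]; exact M.eRk_mono (coe_subset.2 h)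
    exact_mod_cast this
  unit := fun x A => by
    have : ((rk M (insert x A) : ℕ) : ℕ∞) ≤ (rk M A : ℕ) + 1 := by
      rw [coe_rk, coe_rk, coe_insert]; exact M.eRk_insert_le_add_one x _
    exact_mod_cast this
  sub := fun A B => by
    have : ((rk M (A ∩ B) : ℕ) : ℕ∞) + (rk M (A ∪ B) : ℕ) ≤ (rk M A : ℕ) + (rk M B : ℕ) := by
      rw [coe_rk, coe_rk, coe_rk, coe_rk, coe_inter, coe_union]
      exact M.eRk_inter_add_eRk_union_le _ _
    exact_mod_cast this

theorem indep_iff (M : Matroid α) (A : Finset α) : M.Indep (A : Set α) ↔ rk M A = A.card := by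
  rw [Matroid.indep_iff_eRk_eq_encard_of_finite A.finite_toSet, ← coe_rk, Set.encard_coe_eq_coe_finsetCard]
  exact Nat.cast_inj

omit [DecidableEq α] in
/-- the theorem -/
theorem main (M N : Matroid α) (hE : M.E = N.E) (k : ℕ)
    (hk : ∀ J : Finset α, M.Indep (J : Set α) → N.Indep (J : Set α) → J.card ≤ k) :
    ∃ JM JN : Set α, Disjoint JM JN ∧ (JM ∪ JN).Finite ∧ M.Indep (JM ∪ JN) ∧
      N.Indep (JM ∪ JN) ∧ M.closure JM ∪ N.closure JN = M.E := by
  classical
  -- a maximum common independent set
  obtain ⟨J0, hJM, hJN, hmax⟩ : ∃ J0 : Finset α, M.Indep (J0 : Set α) ∧ N.Indep (J0 : Set α) ∧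
      ∀ J : Finset α, M.Indep (J : Set α) → N.Indep (J : Set α) → J.card ≤ J0.card := by
    set Q : ℕ → Prop := fun m => ∃ J : Finset α, M.Indep (J : Set α) ∧ N.Indep (J : Set α) ∧
      J.card = m with hQ
    have hQ0 : Q 0 := ⟨∅, by simp, by simp, rfl⟩
    have hfg := Nat.findGreatest_spec (P := Q) (Nat.zero_le k) hQ0
    obtain ⟨J0, h1, h2, h3⟩ := hfg
    refine ⟨J0, h1, h2, fun J h4 h5 => ?_⟩
    rw [h3]
    exact Nat.le_findGreatest (hk J h4 h5) ⟨J, h4, h5, rfl⟩
  set k0 := J0.card with hk0
  have hR1 := rk_RF M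
  have hR2 := rk_RF N
  obtain ⟨X, hX⟩ : ∃ X : Set α, ∀ A B : Finset α, (∀ a ∈ A, a ∈ X) → (∀ b ∈ B, b ∉ X) →
      rk M A + rk N B ≤ k0 := by
    refine compact hR1 hR2 k0 fun S => ?_
    by_contra hcon
    push Not at hcon
    obtain ⟨J, _, h2, h3, h4⟩ := inter S.card (rk M) (rk N) hR1 hR2 S rfl (k0 + 1) hcon
    have h5 := hmax J ((indep_iff M J).2 (by omega)) ((indep_iff N J).2 (by omega))
    omega
  set A0 := J0.filter (fun x => x ∈ X) with hA0
  set B0 := J0.filter (fun x => x ∉ X) with hB0
  have hAB : A0 ∪ B0 = J0 := filter_union_filter_not_eq _ _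
  have hdis : Disjoint A0 B0 := disjoint_filter_filter_not _ _ _
  have hcard : A0.card + B0.card = k0 := by rw [← card_union_of_disjoint hdis, hAB]
  have hU : (A0 : Set α) ∪ (B0 : Set α) = (J0 : Set α) := by rw [← coe_union, hAB]
  have hA0M : M.Indep (A0 : Set α) := hJM.subset (by rw [← hU]; exact Set.subset_union_left)
  have hB0N : N.Indep (B0 : Set α) := hJN.subset (by rw [← hU]; exact Set.subset_union_right)
  have hrA : rk M A0 = A0.card := (indep_iff M A0).1 hA0M
  have hrB : rk N B0 = B0.card := (indep_iff N B0).1 hB0N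
  refine ⟨A0, B0, disjoint_coe.2 hdis, ?_, ?_, ?_, ?_⟩
  · rw [hU]; exact J0.finite_toSet
  · rw [hU]; exact hJM
  · rw [hU]; exact hJN
  · apply Set.Subset.antisymm
    · refine Set.union_subset (M.closure_subset_ground _) ?_
      rw [hE]; exact N.closure_subset_ground _
    · intro e he
      by_contra hcon
      rw [Set.mem_union, not_or] at hcon
      by_cases heX : e ∈ X
      · have h1 : M.eRk (insert e (A0 : Set α)) = M.eRk (A0 : Set α) + 1 :=
          M.eRk_insert_eq_add_one ⟨he, hcon.1⟩
        have h2 : rk M (insert e A0) = rk M A0 + 1 := by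
          have : ((rk M (insert e A0) : ℕ) : ℕ∞) = (rk M A0 : ℕ) + 1 := by
            rw [coe_rk, coe_rk, coe_insert]; exact h1
          exact_mod_cast this
        have h3 := hX (insert e A0) B0 (fun a ha => by
          rcases mem_insert.1 ha with h | h
          · rw [h]; exact heX
          · exact (mem_filter.1 h).2) (fun b hb => (mem_filter.1 hb).2)
        omega
      · have heN : e ∈ N.E := hE ▸ he
        have h1 : N.eRk (insert e (B0 : Set α)) = N.eRk (B0 : Set α) + 1 :=
          N.eRk_insert_eq_add_one ⟨heN, hcon.2⟩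
        have h2 : rk N (insert e B0) = rk N B0 + 1 := by
          have : ((rk N (insert e B0) : ℕ) : ℕ∞) = (rk N B0 : ℕ) + 1 := by
            rw [coe_rk, coe_rk, coe_insert]; exact h1
          exact_mod_cast this
        have h3 := hX A0 (insert e B0) (fun a ha => (mem_filter.1 ha).2) (fun b hb => by
          rcases mem_insert.1 hb with h | h
          · rw [h]; exact heX
          · exact (mem_filter.1 h).2)
        omega

end Vale.Agent.P068
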