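import Vale.Agent.Lib.P068.Defs
import Vale.Agent.Lib.P068.Inter

/-! P068: duality of the intersection property. -/

namespace Vale.Agent.P068

variable {α : Type*}

theorem half_indep (M : Matroid α) {P C JP I : Set α} (hPC : P ∪ C = M.E)
    (hsp : P ⊆ M✶.closure JP) (hJP : JP ⊆ P) (hI : M.Indep I) (hIC : I ⊆ C)
    (hdis : Disjoint P C) : M.Indep ((P \ JP) ∪ I) := by
  have hsub : (P \ JP) ∪ I ⊆ M✶.E := by
    rw [Matroid.dual_ground, ← hPC]
    exact Set.union_subset (Set.sdiff_subset.trans Set.subset_union_left)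
      (hIC.trans Set.subset_union_right)
  rw [← Matroid.dual_coindep_iff, Matroid.coindep_iff_compl_spanning hsub]
  have hS : M✶.Spanning (M✶.E \ I) := by
    have h1 : M✶.Coindep I := Matroid.dual_coindep_iff.2 hI
    exact h1.compl_spanning
  rw [Matroid.spanning_iff_ground_subset_closure Set.sdiff_subset]
  have h2 : M✶.E \ I ⊆ M✶.closure (M✶.E \ ((P \ JP) ∪ I)) := by
    intro x hx
    have hxE : x ∈ P ∪ C := by rw [hPC]; exact hx.1
    by_cases hxP : x ∈ P
    · have h3 : M✶.closure JP ⊆ M✶.closure (M✶.E \ ((P \ JP) ∪ I)) := by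
        apply M✶.closure_subset_closure
        intro y hy
        refine ⟨?_, ?_⟩
        · rw [Matroid.dual_ground, ← hPC]; exact Or.inl (hJP hy)
        · rintro (h | h)
          · exact h.2 hy
          · exact Set.disjoint_left.1 hdis (hJP hy) (hIC h)
      exact h3 (hsp hxP)
    · have h4 : x ∈ M✶.E \ ((P \ JP) ∪ I) := by
        refine ⟨hx.1, ?_⟩
        rintro (h | h)
        · exact hxP h.1
        · exact hx.2 h
      exact M✶.subset_closure _ Set.sdiff_subset h4
  have h5 : M✶.closure (M✶.E \ I) ⊆ M✶.closure (M✶.E \ ((P \ JP) ∪ I)) :=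
    M✶.closure_subset_closure_of_subset_closure h2
  rw [hS.closure_eq] at h5
  exact h5

theorem half (M : Matroid α) {P C JP JC : Set α} (hPC : P ∪ C = M.E) (hdis : Disjoint P C)
    (hJP : JP ⊆ P) (hsp : P ⊆ M✶.closure JP) (hind : M✶.Indep (JP ∪ JC)) :
    ∃ I ⊆ C \ JC, C ⊆ M.closure I ∧ M.Indep ((P \ JP) ∪ I) := by
  have hCE : C ⊆ M.E := by rw [← hPC]; exact Set.subset_union_right
  have hPE : P ⊆ M.E := by rw [← hPC]; exact Set.subset_union_left
  obtain ⟨I, hI⟩ := M.exists_isBasis (C \ JC) (Set.sdiff_subset.trans hCE)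
  have hIC : I ⊆ C := hI.subset.trans Set.sdiff_subset
  have hind1 := half_indep M hPC hsp hJP hI.indep hIC hdis
  refine ⟨I, hI.subset, ?_, hind1⟩
  -- the complement of `JP ∪ JC` spans `M`
  have hco : M.Coindep (JP ∪ JC) := hind
  have hspan := hco.compl_spanning
  have hcl : M.E ⊆ M.closure ((P \ JP) ∪ I) := by
    rw [← hspan.closure_eq]
    apply M.closure_subset_closure_of_subset_closure
    intro x hx
    have hxE : x ∈ P ∪ C := by rw [hPC]; exact hx.1
    rcases hxE with h | h
    · have h1 : x ∈ (P \ JP) ∪ I := Or.inl ⟨h, fun h2 => hx.2 (Or.inl h2)⟩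
      exact M.subset_closure _ (Set.union_subset (Set.sdiff_subset.trans hPE) (hIC.trans hCE)) h1
    · have h1 : x ∈ C \ JC := ⟨h, fun h2 => hx.2 (Or.inr h2)⟩
      have h2 : C \ JC ⊆ M.closure I := hI.subset_closure
      exact M.closure_subset_closure Set.subset_union_right (h2 h1)
  intro e he
  by_contra hcon
  have heE := hCE he
  have h3 : M.Indep (insert e I) := (hI.indep.notMem_closure_iff heE).1 hcon |>.1
  have h3' : e ∉ I := (hI.indep.notMem_closure_iff heE).1 hcon |>.2
  have h4 := half_indep M hPC hsp hJP h3 (Set.insert_subset he hIC) hdis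
  have h5 : e ∉ (P \ JP) ∪ I := by
    rintro (h | h)
    · exact Set.disjoint_left.1 hdis h.1 he
    · exact h3' h
  have h6 : (P \ JP) ∪ insert e I = insert e ((P \ JP) ∪ I) := Set.union_insert
  rw [h6] at h4
  have h7 := (hind1.notMem_closure_iff heE).2 ⟨h4, h5⟩
  exact h7 (hcl heE)

theorem SatInt.of_dual (M N : Matroid α) (hE : M.E = N.E) (h : SatInt M✶ N✶) : SatInt M N := by
  obtain ⟨J, K, hd, h1, h2, h3⟩ := h
  set P : Set α := M✶.closure J \ K with hP
  set C : Set α := M.E \ P with hC
  have hJE : J ⊆ M✶.E := (Set.subset_union_left.trans h1.subset_ground)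
  have hKE : K ⊆ M.E := (Set.subset_union_right.trans h1.subset_ground)
  have hKN : K ⊆ N✶.E := (Set.subset_union_right.trans h2.subset_ground)
  have hPE : P ⊆ M.E := Set.sdiff_subset.trans (M✶.closure_subset_ground J)
  have hPC : P ∪ C = M.E := Set.union_sdiff_cancel hPE
  have hdis : Disjoint P C := Set.disjoint_sdiff_right
  have hJP : J ⊆ P := fun x hx => ⟨M✶.subset_closure J hJE hx, Set.disjoint_left.1 hd hx⟩
  have hKC : K ⊆ C := fun x hx => ⟨hKE hx, fun h => h.2 hx⟩
  have hPs : P ⊆ M✶.closure J := Set.sdiff_subset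
  have hCs : C ⊆ N✶.closure K := by
    intro x hx
    by_cases hxK : x ∈ K
    · exact N✶.subset_closure K hKN hxK
    · have h4 : x ∈ M✶.closure J ∪ N✶.closure K := by rw [h3]; exact hx.1
      rcases h4 with h4 | h4
      · exact absurd ⟨h4, hxK⟩ hx.2
      · exact h4
  obtain ⟨I1, a1, a2, a3⟩ := half M hPC hdis hJP hPs h1
  obtain ⟨I2, b1, b2, b3⟩ := half N (P := C) (C := P) (JP := K) (JC := J)
    (by rw [Set.union_comm, hPC, hE]) hdis.symm hKC hCs (by rw [Set.union_comm]; exact h2)
  refine ⟨I1, I2, ?_, ?_, ?_, ?_⟩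
  · refine Set.disjoint_left.2 fun x hx1 hx2 => ?_
    exact Set.disjoint_left.1 hdis (b1 hx2).1 (a1 hx1).1
  · refine a3.subset (Set.union_subset Set.subset_union_right (b1.trans Set.subset_union_left))
  · refine b3.subset (Set.union_subset (a1.trans Set.subset_union_left) Set.subset_union_right)
  · apply Set.Subset.antisymm
    · refine Set.union_subset (M.closure_subset_ground _) ?_
      rw [hE]; exact N.closure_subset_ground _
    · rw [← hPC]
      exact Set.union_subset (b2.trans Set.subset_union_right) (a2.trans Set.subset_union_left)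

end Vale.Agent.P068
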