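import Vale.Agent.Lib.P068.Inter

/-! P068: packing/covering partitions for finite families with bounded disjoint independent
families. -/

namespace Vale.Agent.P068

open Finset

variable {α ι : Type*} [DecidableEq α] [DecidableEq ι]

/-- fibre of a finite set of pairs -/
def fib (A : Finset (α × ι)) (i : ι) : Finset α := (A.filter (fun p => p.2 = i)).image Prod.fst

theorem mem_fib {A : Finset (α × ι)} {i : ι} {e : α} : e ∈ fib A i ↔ (e, i) ∈ A := by
  unfold fib
  rw [mem_image]
  constructor
  · rintro ⟨⟨a, j⟩, h1, h2⟩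
    rw [mem_filter] at h1
    obtain ⟨h3, h4⟩ := h1
    simp only at h2 h4
    rw [← h2, ← h4]; exact h3
  · intro h
    exact ⟨(e, i), mem_filter.2 ⟨h, rfl⟩, rfl⟩

theorem card_fib (A : Finset (α × ι)) (i : ι) :
    (fib A i).card = (A.filter (fun p => p.2 = i)).card := by
  unfold fib
  refine card_image_of_injOn ?_
  rintro ⟨a, j⟩ h1 ⟨b, l⟩ h2 h3
  have h4 := (mem_filter.1 h1).2
  have h5 := (mem_filter.1 h2).2
  simp only at h3 h4 h5
  rw [h3, h4, h5]

theorem fib_empty {A : Finset (α × ι)} {i : ι} (h : i ∉ A.image Prod.snd) : fib A i = ∅ := by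
  rw [Finset.eq_empty_iff_forall_notMem]
  intro e he
  exact h (mem_image.2 ⟨(e, i), mem_fib.1 he, rfl⟩)

theorem sum_card_fib (A : Finset (α × ι)) : ∑ i ∈ A.image Prod.snd, (fib A i).card = A.card := by
  rw [card_eq_sum_card_fiberwise (f := Prod.snd) (t := A.image Prod.snd)
    (fun x hx => mem_coe.2 (mem_image_of_mem _ (mem_coe.1 hx)))]
  exact sum_congr rfl fun i _ => card_fib A i

/-- rank function of the family -/
noncomputable def r1 (M : ι → Matroid α) (A : Finset (α × ι)) : ℕ :=
  ∑ i ∈ A.image Prod.snd, rk (M i) (fib A i)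

theorem r1_eq (M : ι → Matroid α) {A : Finset (α × ι)} {T : Finset ι}
    (h : A.image Prod.snd ⊆ T) : r1 M A = ∑ i ∈ T, rk (M i) (fib A i) := by
  unfold r1
  refine sum_subset h fun i _ hi => ?_
  rw [fib_empty hi]; exact (rk_RF (M i)).zero

theorem r1_RF (M : ι → Matroid α) : RF (r1 M) where
  zero := by unfold r1; simp
  mono := fun A B h => by
    rw [r1_eq M (image_subset_image (f := Prod.snd) h)]
    exact sum_le_sum fun i _ => (rk_RF (M i)).mono _ _ fun e he => mem_fib.2 (h (mem_fib.1 he))
  unit := fun x A => by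
    obtain ⟨e, j⟩ := x
    have h1 : ∀ i, rk (M i) (fib (insert (e, j) A) i) ≤
        rk (M i) (fib A i) + if i = j then 1 else 0 := by
      intro i
      by_cases hij : i = j
      · subst hij
        rw [if_pos rfl]
        have h2 : fib (insert (e, i) A) i = insert e (fib A i) := by
          ext y; rw [mem_fib, mem_insert, mem_insert, mem_fib]; simp
        rw [h2]; exact (rk_RF (M i)).unit _ _
      · rw [if_neg hij]
        have h2 : fib (insert (e, j) A) i = fib A i := by
          ext y; rw [mem_fib, mem_insert, mem_fib]; simp [hij]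
        rw [h2]; exact le_rfl
    have h3 := r1_eq M (A := A) (T := (insert (e, j) A).image Prod.snd)
      (image_subset_image (subset_insert _ _))
    rw [h3]
    refine (sum_le_sum fun i _ => h1 i).trans ?_
    rw [sum_add_distrib]
    refine Nat.add_le_add_left ?_ _
    rw [sum_ite_eq']
    split_ifs <;> omega
  sub := fun A B => by
    rw [r1_eq M (A := A ∩ B) (T := (A ∪ B).image Prod.snd)
        (image_subset_image (inter_subset_left.trans subset_union_left)),
      r1_eq M (A := A) (T := (A ∪ B).image Prod.snd) (image_subset_image subset_union_left),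
      r1_eq M (A := B) (T := (A ∪ B).image Prod.snd) (image_subset_image subset_union_right),
      r1_eq M (A := A ∪ B) (T := (A ∪ B).image Prod.snd) (Subset.refl _)]
    rw [← sum_add_distrib, ← sum_add_distrib]
    refine sum_le_sum fun i _ => ?_
    have e1 : fib (A ∩ B) i = fib A i ∩ fib B i := by
      ext y; rw [mem_fib, mem_inter, mem_inter, mem_fib, mem_fib]
    have e2 : fib (A ∪ B) i = fib A i ∪ fib B i := by
      ext y; rw [mem_fib, mem_union, mem_union, mem_fib, mem_fib]
    rw [e1, e2]; exact (rk_RF (M i)).sub _ _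

/-- number of elements met -/
def r2 (A : Finset (α × ι)) : ℕ := (A.image Prod.fst).card

omit [DecidableEq ι] in
theorem r2_mono (A B : Finset (α × ι)) (h : A ⊆ B) : r2 A ≤ r2 B :=
  card_le_card (image_subset_image h)

theorem r2_RF : RF (r2 : Finset (α × ι) → ℕ) where
  zero := by unfold r2; simp
  mono := r2_mono
  unit := fun x A => by
    unfold r2
    rw [image_insert]
    exact card_insert_le _ _
  sub := fun A B => by
    unfold r2
    rw [image_union, ← card_union_add_card_inter (A.image Prod.fst) (B.image Prod.fst), add_comm]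
    refine Nat.add_le_add_left (card_le_card ?_) _
    exact image_inter_subset _ _ _

/-- a finite family of disjoint independent sets, coded by pairs -/
def Good (M : ι → Matroid α) (J : Finset (α × ι)) : Prop :=
  (∀ i, (M i).Indep (fib J i : Set α)) ∧ r2 J = J.card

theorem good_iff (M : ι → Matroid α) (J : Finset (α × ι)) :
    Good M J ↔ r1 M J = J.card ∧ r2 J = J.card := by
  unfold Good
  refine and_congr_left fun _ => ?_
  have hle : ∀ i ∈ J.image Prod.snd, rk (M i) (fib J i) ≤ (fib J i).card := by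
    intro i _
    have h := (M i).eRk_le_encard (fib J i : Set α)
    rw [← coe_rk, Set.encard_coe_eq_coe_finsetCard] at h
    exact_mod_cast h
  rw [← sum_card_fib J]
  unfold r1
  rw [sum_eq_sum_iff_of_le hle]
  constructor
  · intro h i _
    exact (indep_iff (M i) _).1 (h i)
  · intro h i
    by_cases hi : i ∈ J.image Prod.snd
    · exact (indep_iff (M i) _).2 (h i hi)
    · rw [fib_empty hi, coe_empty]; exact (M i).empty_indep

theorem pc (M : ι → Matroid α) (E : Set α) (hE : ∀ i, (M i).E = E) (k : ℕ)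
    (hk : ∀ J : Finset (α × ι), Good M J → J.card ≤ k) :
    ∃ (P C : Set α) (S I : ι → Set α), P ∪ C = E ∧ Disjoint P C ∧
      (∀ i, S i ⊆ P) ∧ (∀ i j, i ≠ j → Disjoint (S i) (S j)) ∧ (∀ i, P ⊆ (M i).closure (S i)) ∧
      (∀ i, I i ⊆ C) ∧ (∀ i, ((M i).contract P).Indep (I i)) ∧ (⋃ i, I i) = C := by
  obtain ⟨J0, hJ0, hmax⟩ : ∃ J0 : Finset (α × ι), Good M J0 ∧
      ∀ J : Finset (α × ι), Good M J → J.card ≤ J0.card := by
    classical
    set Q : ℕ → Prop := fun m => ∃ J : Finset (α × ι), Good M J ∧ J.card = m with hQ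
    have hQ0 : Q 0 := ⟨∅, (good_iff M ∅).2 ⟨(r1_RF M).zero, r2_RF.zero⟩, rfl⟩
    obtain ⟨J0, h1, h3⟩ := Nat.findGreatest_spec (P := Q) (Nat.zero_le k) hQ0
    refine ⟨J0, h1, fun J h4 => ?_⟩
    rw [h3]
    exact Nat.le_findGreatest (hk J h4) ⟨J, h4, rfl⟩
  set k0 := J0.card with hk0
  have hR1 := r1_RF M
  have hR2 : RF (r2 : Finset (α × ι) → ℕ) := r2_RF
  obtain ⟨X, hX⟩ : ∃ X : Set (α × ι), ∀ A B : Finset (α × ι), (∀ a ∈ A, a ∈ X) →
      (∀ b ∈ B, b ∉ X) → r1 M A + r2 B ≤ k0 := by
    refine compact hR1 hR2 k0 fun S => ?_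
    by_contra hcon
    push Not at hcon
    obtain ⟨J, _, h2, h3, h4⟩ := inter S.card (r1 M) r2 hR1 hR2 S rfl (k0 + 1) hcon
    have h5 := hmax J ((good_iff M J).2 ⟨by omega, by omega⟩)
    omega
  classical
  set A0 := J0.filter (fun x => x ∈ X) with hA0
  set B0 := J0.filter (fun x => x ∉ X) with hB0
  have hAB : A0 ∪ B0 = J0 := filter_union_filter_not_eq _ _
  have hcard : A0.card + B0.card = k0 := by
    rw [← card_union_of_disjoint (disjoint_filter_filter_not _ _ _), hAB]
  have hinjJ : ∀ p ∈ J0, ∀ q ∈ J0, p.1 = q.1 → p = q := by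
    have h1 : (J0.image Prod.fst).card = J0.card := hJ0.2
    have h2 := card_image_iff.1 h1
    exact fun p hp q hq h => h2 hp hq h
  have hgA : ∀ J : Finset (α × ι), J ⊆ J0 → Good M J := by
    intro J hJ
    refine ⟨fun i => (hJ0.1 i).subset fun e he => ?_, ?_⟩
    · exact mem_coe.2 (mem_fib.2 (hJ (mem_fib.1 (mem_coe.1 he))))
    · unfold r2
      exact card_image_of_injOn fun p hp q hq h => hinjJ p (hJ hp) q (hJ hq) h
  have hrA : r1 M A0 = A0.card := ((good_iff M A0).1 (hgA A0 (filter_subset _ _))).1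
  have hrB : r2 B0 = B0.card := ((good_iff M B0).1 (hgA B0 (filter_subset _ _))).2
  set C : Set α := {e | ∃ i, (e, i) ∈ B0} with hC
  set S : ι → Set α := fun i => {e | (e, i) ∈ A0} with hS
  set I : ι → Set α := fun i => {e | (e, i) ∈ B0} with hI
  have hSfib : ∀ i, S i = (fib A0 i : Set α) := fun i => by ext e; simp [hS, mem_fib]
  have hJind : ∀ i, (M i).Indep (S i ∪ I i) := by
    intro i
    refine (hJ0.1 i).subset fun e he => ?_
    rw [mem_coe, mem_fib]
    rcases he with h | h
    · exact (mem_filter.1 h).1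
    · exact (mem_filter.1 h).1
  have hCE : C ⊆ E := by
    rintro e ⟨i, hi⟩
    rw [← hE i]
    exact (hJind i).subset_ground (Or.inr hi)
  have hSE : ∀ i, S i ⊆ E := fun i => by
    rw [← hE i]; exact Set.subset_union_left.trans (hJind i).subset_ground
  have hSC : ∀ i, Disjoint (S i) C := by
    intro i
    refine Set.disjoint_left.2 ?_
    rintro e he ⟨j, hj⟩
    have h1 := hinjJ (e, i) (mem_filter.1 he).1 (e, j) (mem_filter.1 hj).1 rfl
    have h2 := (mem_filter.1 he).2
    rw [h1] at h2
    exact (mem_filter.1 hj).2 h2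
  have hcl : ∀ i, E \ C ⊆ (M i).closure (S i) := by
    intro i e he
    by_contra hcon
    by_cases heX : (e, i) ∈ X
    · have h1 : (M i).eRk (insert e (S i)) = (M i).eRk (S i) + 1 :=
        (M i).eRk_insert_eq_add_one ⟨(hE i).symm ▸ he.1, hcon⟩
      have h2 : rk (M i) (insert e (fib A0 i)) = rk (M i) (fib A0 i) + 1 := by
        have : ((rk (M i) (insert e (fib A0 i)) : ℕ) : ℕ∞) = (rk (M i) (fib A0 i) : ℕ) + 1 := by
          rw [coe_rk, coe_rk, coe_insert, ← hSfib]; exact h1
        exact_mod_cast this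
      have h3 : r1 M A0 + 1 ≤ r1 M (insert (e, i) A0) := by
        set T := (insert (e, i) A0).image Prod.snd with hT
        have hiT : i ∈ T := mem_image.2 ⟨(e, i), mem_insert_self _ _, rfl⟩
        rw [r1_eq M (A := A0) (T := T) (image_subset_image (subset_insert _ _)),
          r1_eq M (A := insert (e, i) A0) (T := T) (Subset.refl _),
          ← add_sum_erase T (fun j => rk (M j) (fib A0 j)) hiT,
          ← add_sum_erase T (fun j => rk (M j) (fib (insert (e, i) A0) j)) hiT]
        have e1 : fib (insert (e, i) A0) i = insert e (fib A0 i) := by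
          ext y; rw [mem_fib, mem_insert, mem_insert, mem_fib]; simp
        rw [e1, h2]
        have h4 : ∑ j ∈ T.erase i, rk (M j) (fib A0 j)
            ≤ ∑ j ∈ T.erase i, rk (M j) (fib (insert (e, i) A0) j) :=
          sum_le_sum fun j _ => (rk_RF (M j)).mono _ _ fun y hy =>
            mem_fib.2 (mem_insert_of_mem (mem_fib.1 hy))
        omega
      have h5 := hX (insert (e, i) A0) B0 (fun a ha => by
        rcases mem_insert.1 ha with h | h
        · rw [h]; exact heX
        · exact (mem_filter.1 h).2) (fun b hb => (mem_filter.1 hb).2)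
      omega
    · have h2 : r2 (insert (e, i) B0) = r2 B0 + 1 := by
        unfold r2
        rw [image_insert, card_insert_of_notMem]
        intro h
        obtain ⟨⟨a, j⟩, h3, h4⟩ := mem_image.1 h
        simp only at h4
        rw [h4] at h3
        exact he.2 ⟨j, h3⟩
      have h5 := hX A0 (insert (e, i) B0) (fun a ha => (mem_filter.1 ha).2) (fun b hb => by
        rcases mem_insert.1 hb with h | h
        · rw [h]; exact heX
        · exact (mem_filter.1 h).2)
      omega
  refine ⟨E \ C, C, S, I, Set.sdiff_union_of_subset hCE, Set.disjoint_sdiff_left,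
    fun i e he => ⟨hSE i he, fun h => Set.disjoint_left.1 (hSC i) he h⟩, ?_, hcl,
    fun i e he => ⟨i, he⟩, ?_, ?_⟩
  · intro i j hij
    refine Set.disjoint_left.2 fun e h1 h2 => hij ?_
    have h3 := hinjJ (e, i) (mem_filter.1 h1).1 (e, j) (mem_filter.1 h2).1 rfl
    exact (Prod.mk.inj h3).2
  · intro i
    have hb : (M i).IsBasis (S i) (E \ C) := by
      refine ((hJind i).subset Set.subset_union_left).isBasis_of_subset_of_subset_closure ?_ (hcl i)
      exact fun e he => ⟨hSE i he, fun h => Set.disjoint_left.1 (hSC i) he h⟩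
    rw [hb.contract_indep_iff_of_disjoint]
    · exact (hJind i).subset (by rw [Set.union_comm])
    · refine Set.disjoint_left.2 fun e h1 h2 => h1.2 ⟨i, h2⟩
  · ext e
    rw [Set.mem_iUnion]
    exact Iff.rfl

end Vale.Agent.P068
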